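import Vale.Agent.Helper2.Corner

/-!
# P195: the Auslander-Reiten conjecture passes from a corner ring `eAe` to `A`

Let `A` be a left Artinian ring and `e` an idempotent of `A` such that every simple left
`A`-module killed by `e` has finite projective dimension.  If the Auslander-Reiten conjecture
holds for the corner ring `eAe` (every finitely generated `eAe`-module `N` with
`Ext^i(N, N) = 0 = Ext^i(N, eAe)` for all `i ≥ 1` is projective), then it holds for `A`.

Proof sketch.  Let `M` satisfy the vanishing condition over `A`.  Then `Ext^i(M, X) = 0` for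
`i ≥ 1` and every finitely generated `X` of finite projective dimension, in particular for the
simple modules killed by `e`.  Take a minimal projective presentation `Q → M` with kernel `K`.
Then `K` has a resolution by finite direct sums of copies of `Ae`, one has
`Ext^i(K, K) = 0 = Ext^i(K, Ae)` for `i ≥ 1`, and these groups agree with the Ext groups of the
`eAe`-modules `eK`, `eK` and `eK`, `eAe`.  So `eK` is projective over `eAe`, hence `K` is
projective over `A`, and since `Ext^1(M, K) = 0` the presentation splits.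
-/

universe u

open CategoryTheory Abelian

namespace Vale.Agent.Results.P195.CornerReduction

open Vale.Agent.Helper2.Corner

/-- **Corner reduction for the Auslander-Reiten conjecture.**  Let `A` be a left Artinian ring and
`e` an idempotent such that every simple left `A`-module killed by `e` has finite projective
dimension.  Suppose every finitely generated left module `N` over the corner ring `eAe` with
`Ext^i(N, N) = 0` and `Ext^i(N, eAe) = 0` for all `i ≥ 1` is projective.  Then every finitely
generated left `A`-module `M` with `Ext^i(M, M) = 0` and `Ext^i(M, A) = 0` for all `i ≥ 1` is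
projective. -/
theorem result {A : Type u} [Ring A] [IsArtinianRing A] (e : A) (he : IsIdempotentElem e)
    (hgood : ∀ (T : Type u) [AddCommGroup T] [Module A T] [IsSimpleModule A T],
      (∀ t : T, e • t = 0) → ∃ d : ℕ, HasProjectiveDimensionLE (ModuleCat.of A T) d)
    (hcorner : ∀ (N : ModuleCat.{u} he.Corner) [Module.Finite he.Corner N],
      (∀ (i : ℕ) (x : Ext N N (i + 1)), x = 0) →
      (∀ (i : ℕ) (x : Ext N (ModuleCat.of he.Corner he.Corner) (i + 1)), x = 0) →
      Module.Projective he.Corner N)
    (M : ModuleCat.{u} A) [Module.Finite A M]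
    (h1 : ∀ (i : ℕ) (x : Ext M M (i + 1)), x = 0)
    (h2 : ∀ (i : ℕ) (x : Ext M (ModuleCat.of A A) (i + 1)), x = 0) :
    Module.Projective A M := by
  have hL1 : ∀ (p : ℕ) (X : Type u) [AddCommGroup X] [Module A X] [Module.Finite A X],
      HasProjectiveDimensionLT (ModuleCat.of A X) (p + 1) →
      ∀ (i : ℕ) (x : Ext M (ModuleCat.of A X) (i + 1)), x = 0 :=
    fun p => ext_eq_zero_of_pd M h2 p
  have hM1 : ExtVanish e 1 M := by
    intro T _ _ _ hT j hj x
    obtain ⟨d, hd⟩ := hgood T hT
    have hTfin : Module.Finite A T := Module.IsNoetherian.finite A T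
    obtain ⟨j', rfl⟩ : ∃ j', j = j' + 1 := ⟨j - 1, by omega⟩
    exact hL1 d T hd j' x
  obtain ⟨Q, _, _, _, hQproj, π, hπ, hK⟩ := exists_min_syzygy (A := A) (e := e) M hM1
  have hKfin : Module.Finite A (LinearMap.ker π) := Module.IsNoetherian.finite A _
  have hproj : Projective (ModuleCat.of A Q) :=
    ModuleCat.projective_of_categoryTheory_projective _
  have hS := LinearMap.shortExact_shortComplexKer hπ
  have hQ1 : HasProjectiveDimensionLT (ModuleCat.of A Q) (0 + 1) := by
    rw [zero_add]
    exact projective_iff_hasProjectiveDimensionLT_one.mp hproj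
  have hMQ : ∀ (i : ℕ) (x : Ext M (ModuleCat.of A Q) (i + 1)), x = 0 := hL1 0 Q hQ1
  have hMK : ∀ (i : ℕ) (x : Ext M (ModuleCat.of A (LinearMap.ker π)) (i + 2)), x = 0 := by
    intro i x
    obtain ⟨x₃, rfl⟩ := Ext.covariant_sequence_exact₁ M hS x (hMQ (i + 1) _)
      (rfl : i + 1 + 1 = i + 2)
    rw [h1 i x₃, Ext.zero_comp]
  have hKK : ∀ (i : ℕ) (x : Ext (ModuleCat.of A (LinearMap.ker π))
      (ModuleCat.of A (LinearMap.ker π)) (i + 1)), x = 0 := by
    intro i x
    exact ext_ker_eq_zero π hπ (ModuleCat.of A (LinearMap.ker π)) (i + 1)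
      (fun x₂ => Ext.eq_zero_of_projective x₂) (hMK i) x
  have hPfin : Module.Finite A (PUnit.{u + 1} → Pe e) := Pe_pow_finite e PUnit
  have hPproj : Module.Projective A (PUnit.{u + 1} → Pe e) := Pe_projective_pow he
  have hPproj' : Projective (ModuleCat.of A (PUnit.{u + 1} → Pe e)) :=
    ModuleCat.projective_of_categoryTheory_projective _
  have hP1 : HasProjectiveDimensionLT (ModuleCat.of A (PUnit.{u + 1} → Pe e)) (0 + 1) := by
    rw [zero_add]
    exact projective_iff_hasProjectiveDimensionLT_one.mp hPproj'
  have hKP : ∀ (i : ℕ) (x : Ext (ModuleCat.of A (LinearMap.ker π))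
      (ModuleCat.of A (PUnit.{u + 1} → Pe e)) (i + 1)), x = 0 := by
    intro i x
    exact ext_ker_eq_zero π hπ _ (i + 1) (fun x₂ => Ext.eq_zero_of_projective x₂)
      (hL1 0 _ hP1 (i + 1)) x
  have hNN := fun i => ext_corner_eq_zero he (LinearMap.ker π) i (LinearMap.ker π) hK (hKK i)
  have hNP := fun i => ext_corner_eq_zero he (PUnit.{u + 1} → Pe e) i (LinearMap.ker π) hK
    (hKP i)
  let ε : eSub e (PUnit.{u + 1} → Pe e) ≃ₗ[he.Corner] he.Corner :=
    (ePowEquiv he).trans (LinearEquiv.funUnique PUnit.{u + 1} he.Corner he.Corner)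
  have hNB : ∀ (i : ℕ) (x : Ext (ModuleCat.of he.Corner (eSub e (LinearMap.ker π)))
      (ModuleCat.of he.Corner he.Corner) (i + 1)), x = 0 :=
    fun i x => ext_eq_zero_of_iso ε.toModuleIso.symm (hNP i) x
  obtain ⟨ι, _, _, π', hπ', -⟩ := exists_presentation he (LinearMap.ker π) hK
  have hfinB : Module.Finite he.Corner (eSub e (LinearMap.ker π)) := by
    have hfin := ePow_finite he (ι := ι)
    exact Module.Finite.of_surjective (eMap he π') (eMap_surjective he π' hπ')
  have hNproj : Module.Projective he.Corner (eSub e (LinearMap.ker π)) :=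
    hcorner (ModuleCat.of he.Corner (eSub e (LinearMap.ker π))) hNN hNB
  have hN1 : HasProjectiveDimensionLT (ModuleCat.of he.Corner (eSub e (LinearMap.ker π)))
      (0 + 1) := by
    rw [zero_add]
    exact projective_iff_hasProjectiveDimensionLT_one.mp
      ((IsProjective.iff_projective _).mp hNproj)
  have hK1 := pdA_of_pdB he 0 (LinearMap.ker π) hK hN1
  have hMK1 : ∀ x : Ext M (ModuleCat.of A (LinearMap.ker π)) 1, x = 0 := hL1 0 _ hK1 0
  obtain ⟨x₂, hx₂⟩ := Ext.covariant_sequence_exact₃ M hS (Ext.mk₀ (𝟙 M)) (zero_add 1) (hMK1 _)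
  obtain ⟨s, rfl⟩ := (Ext.mk₀_bijective _ _).2 x₂
  rw [Ext.mk₀_comp_mk₀, (Ext.mk₀_bijective _ _).1.eq_iff] at hx₂
  have hMproj : Projective M := (Retract.mk s π.shortComplexKer.g hx₂).projective
  exact (IsProjective.iff_projective M).mpr hMproj

end Vale.Agent.Results.P195.CornerReduction
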