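import Vale.Agent.Helper2.ARSyz

/-!
# P195: the Auslander-Reiten conjecture for modules of finite syzygy type

Let `R` be any ring, `M` an `R`-module and `n ≥ 0` such that `Ext^i(M, M) = 0` and
`Ext^i(M, R) = 0` for all `i > n`.  Suppose `M` has a resolution by finitely generated free
modules `R^(r i)` whose syzygy modules `K i` (`K 0 ≅ M`, `K (i+1) ≅ ker (R^(r i) → K i)`) are,
for `i ≥ i₀`, finite direct sums of copies of finitely many fixed modules `X_1, ..., X_m`.  Then
`M` has projective dimension at most `n`.  For `n = 0` the hypothesis is the condition (AR) of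
the problem and the conclusion says that `M` is projective.

Proof: a module which is a direct summand of an `a`-th and of a `b`-th syzygy of `M` with
`b > a + n` is projective (`Helper2/ARSyz`, `projective_of_common_retract`); by the pigeonhole
principle some syzygy is projective, and the vanishing of `Ext^i(M, R)` for `i > n` brings the
projective dimension down to `n`.
-/

universe u

open CategoryTheory Abelian

namespace Vale.Agent.Results.P195.FiniteSyzygyType

open Vale.Agent.Helper2.ARSyz

theorem result :
    ∀ {R : Type u} [Ring R] (M : ModuleCat.{u} R) (n : ℕ),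
      (∀ i : ℕ, n < i → ∀ x : Ext M M i, x = 0) →
      (∀ i : ℕ, n < i → ∀ x : Ext M (ModuleCat.of R R) i, x = 0) →
      ∀ (K : ℕ → ModuleCat.{u} R) (r : ℕ → ℕ) (π : ∀ i : ℕ, (Fin (r i) → R) →ₗ[R] K i),
        (∀ i : ℕ, Function.Surjective (π i)) → Nonempty (K 0 ≃ₗ[R] M) →
        (∀ i : ℕ, Nonempty (K (i + 1) ≃ₗ[R] LinearMap.ker (π i))) →
        ∀ (m : ℕ) (X : Fin m → ModuleCat.{u} R) (i₀ : ℕ),
          (∀ i : ℕ, i₀ ≤ i → ∃ c : Fin m → ℕ,
            Nonempty (K i ≃ₗ[R] ((j : Fin m) → Fin (c j) → X j))) →
          HasProjectiveDimensionLE M n := by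
  intro R _ M n hMM hMR K r π hπ e0 eK m X i₀ hfin
  exact pd_le_of_finite_syzygy_type M n hMM hMR (fun i => K i) r π hπ e0 eK m (fun j => X j)
    i₀ hfin

end Vale.Agent.Results.P195.FiniteSyzygyType
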