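import Vale.Agent.Helper2.ARRad
import Vale.Agent.Results.P195.CornerReduction

/-!
# P195: two classes of modules and rings for which the Auslander-Reiten conjecture holds

Throughout, `A` is a left Artinian ring (for instance an Artin algebra).

1. (Finite syzygy type, generalized vanishing condition.)  Let `M` be an `A`-module and
   `n ≥ 0` such that `Ext^i(M, M) = 0` and `Ext^i(M, A) = 0` for all `i > n`.
   Suppose `M` has a resolution by finitely generated free modules `A^(r i)` whose syzygy
   modules `K i` (`K 0 ≅ M`, `K (i+1) ≅ ker (A^(r i) → K i)`) are, for `i ≥ i₀`, finite direct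
   sums of copies of finitely many fixed modules `X_1, ..., X_m`.  Then `M` has
   projective dimension at most `n`.  For `n = 0` the hypothesis is the condition (AR) of the
   problem and the conclusion says that `M` is projective.

2. (At most two radical layers of infinite projective dimension.)  Let `J` be the Jacobson
   radical of `A`, and suppose that at most two of the radical layers
   `J^i / J^(i+1)`, `i ≥ 0` (written as the image of `J^i` in `A / J^(i+1)`), have infinite
   projective dimension.  Then every finitely generated left `A`-module `M` with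
   `Ext^i(M, M) = 0 = Ext^i(M, A)` for all `i ≥ 1` is projective.  This contains the rings with
   radical square zero and the rings of finite global dimension.

Proof of 1: a module which is a direct summand of an `a`-th and of a `b`-th syzygy of `M` with
`b > a + n` is projective (`Helper2/ARSyz`), and the pigeonhole principle.  Proof of 2: for the
idempotent `e` annihilating exactly the simple modules of finite projective dimension, the
corner ring `eAe` has radical square zero; over such a ring the syzygies in a minimal resolution
are semisimple, so the first argument applies (`Helper2/ARRad`); finally the corner reduction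
`P195.CornerReduction` passes from `eAe` to `A`.
-/

universe u

open CategoryTheory Abelian

namespace Vale.Agent.Results.P195.SelfOrthogonal

open Vale.Agent.Helper2.ARSyz Vale.Agent.Helper2.ARRad

theorem result {A : Type u} [Ring A] [IsArtinianRing A] :
    (∀ (M : ModuleCat.{u} A) (n : ℕ),
      (∀ i : ℕ, n < i → ∀ x : Ext M M i, x = 0) →
      (∀ i : ℕ, n < i → ∀ x : Ext M (ModuleCat.of A A) i, x = 0) →
      ∀ (K : ℕ → ModuleCat.{u} A) (r : ℕ → ℕ) (π : ∀ i : ℕ, (Fin (r i) → A) →ₗ[A] K i),
        (∀ i : ℕ, Function.Surjective (π i)) → Nonempty (K 0 ≃ₗ[A] M) →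
        (∀ i : ℕ, Nonempty (K (i + 1) ≃ₗ[A] LinearMap.ker (π i))) →
        ∀ (m : ℕ) (X : Fin m → ModuleCat.{u} A) (i₀ : ℕ),
          (∀ i : ℕ, i₀ ≤ i → ∃ c : Fin m → ℕ,
            Nonempty (K i ≃ₗ[A] ((j : Fin m) → Fin (c j) → X j))) →
          HasProjectiveDimensionLE M n) ∧
    (∀ s : Finset ℕ, s.card ≤ 2 →
      (∀ i : ℕ, i ∉ s → ∃ n : ℕ, HasProjectiveDimensionLE (ModuleCat.of A ↥(Submodule.map
        (Submodule.mkQ (Ring.jacobson A ^ (i + 1))) (Ring.jacobson A ^ i))) n) →
      ∀ (M : ModuleCat.{u} A) [Module.Finite A M],
        (∀ (i : ℕ) (x : Ext M M (i + 1)), x = 0) →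
        (∀ (i : ℕ) (x : Ext M (ModuleCat.of A A) (i + 1)), x = 0) →
        Module.Projective A M) := by
  refine ⟨?_, ?_⟩
  · intro M n hMM hMR K r π hπ e0 eK m X i₀ hfin
    exact pd_le_of_finite_syzygy_type M n hMM hMR (fun i => K i) r π hπ e0 eK m (fun j => X j)
      i₀ hfin
  · intro s hs h M _ h1 h2
    obtain ⟨e, he, hA, hB⟩ := Vale.Agent.Helper2.IT.exists_idem_pd (A := A)
    refine Vale.Agent.Results.P195.CornerReduction.result e he ?_ ?_ M h1 h2
    · intro T _ _ _ hT
      exact hA (ModuleCat.of A T) inferInstance hT
    · intro N _ hNN hNB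
      have hart : IsArtinianRing he.Corner := Vale.Agent.Helper2.IT.isArtinianRing_corner he
      exact projective_of_rad_sq_zero (corner_rad_sq_zero he hB s hs h) N hNN hNB

end Vale.Agent.Results.P195.SelfOrthogonal
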