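import Vale.Agent.Helper2.ARRad
import Vale.Agent.Results.P195.CornerReduction

/-!
# P195: the Auslander-Reiten conjecture for rings with at most two radical layers of infinite
projective dimension

Let `A` be a left Artinian ring with Jacobson radical `J`, and suppose that at most two of the
radical layers `J^i / J^(i+1)`, `i ≥ 0` (written as the image of `J^i` in `A / J^(i+1)`), have
infinite projective dimension.  Then every finitely generated left `A`-module `M` with
`Ext^i(M, M) = 0 = Ext^i(M, A)` for all `i ≥ 1` is projective.  This contains the rings with
radical square zero (only the layers `0` and `1` are nonzero) and the rings of finite global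
dimension.

Proof: for the idempotent `e` annihilating exactly the simple modules of finite projective
dimension, the corner ring `eAe` has radical square zero.  Over a ring with radical square zero
the syzygies in a minimal resolution are semisimple, and a module which is a direct summand of
two different syzygies of a module satisfying the vanishing condition is projective
(`Helper2/ARSyz`, `Helper2/ARRad`); as there are only finitely many simple modules up to
isomorphism, the conjecture holds for `eAe`.  Finally the corner reduction
`P195.CornerReduction` passes from `eAe` to `A`.
-/

universe u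

open CategoryTheory Abelian

namespace Vale.Agent.Results.P195.TwoLayers

open Vale.Agent.Helper2.ARRad

theorem result {A : Type u} [Ring A] [IsArtinianRing A] (s : Finset ℕ) (hs : s.card ≤ 2)
    (h : ∀ i : ℕ, i ∉ s → ∃ n : ℕ, HasProjectiveDimensionLE (ModuleCat.of A ↥(Submodule.map
      (Submodule.mkQ (Ring.jacobson A ^ (i + 1))) (Ring.jacobson A ^ i))) n)
    (M : ModuleCat.{u} A) [Module.Finite A M]
    (h1 : ∀ (i : ℕ) (x : Ext M M (i + 1)), x = 0)
    (h2 : ∀ (i : ℕ) (x : Ext M (ModuleCat.of A A) (i + 1)), x = 0) :
    Module.Projective A M := by
  obtain ⟨e, he, hA, hB⟩ := Vale.Agent.Helper2.IT.exists_idem_pd (A := A)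
  refine Vale.Agent.Results.P195.CornerReduction.result e he ?_ ?_ M h1 h2
  · intro T _ _ _ hT
    exact hA (ModuleCat.of A T) inferInstance hT
  · intro N _ hNN hNB
    have hart : IsArtinianRing he.Corner := Vale.Agent.Helper2.IT.isArtinianRing_corner he
    exact projective_of_rad_sq_zero (corner_rad_sq_zero he hB s hs h) N hNN hNB

end Vale.Agent.Results.P195.TwoLayers
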